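import Mathlib

/-!
# The Aikawa condition for the middle-thirds Cantor set

`∫_{|z - y| ≤ ρ} dist (z, C) ^ (-a) dz ≤ K ρ ^ (1 - a)` for all `y` within `ρ` of `C`, for every
`0 < a < 1 - log 2 / log 3`.
-/

open MeasureTheory Set Metric
open scoped ENNReal

namespace Vale.Agent.P141.R2.H497

noncomputable section

/-- distance to the Cantor set -/
def D (z : ℝ) : ℝ := infDist z cantorSet

/-- the kernel -/
def g (a z : ℝ) : ℝ≥0∞ := ENNReal.ofReal (D z ^ (-a))

lemma D_nonneg (z : ℝ) : 0 ≤ D z := infDist_nonneg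

lemma measurable_g (a : ℝ) : Measurable (g a) :=
  ((continuous_infDist_pt _).measurable.pow_const _).ennreal_ofReal

lemma isCompact_C : IsCompact cantorSet :=
  isCompact_Icc.of_isClosed_subset isClosed_cantorSet cantorSet_subset_unitInterval

lemma exists_near (z : ℝ) : ∃ p ∈ cantorSet, D z = |z - p| := by
  obtain ⟨p, hp, h⟩ := isCompact_C.exists_infDist_eq_dist ⟨0, zero_mem_cantorSet⟩ z
  exact ⟨p, hp, by rw [D, h, Real.dist_eq]⟩

lemma D_le {z p : ℝ} (hp : p ∈ cantorSet) : D z ≤ |z - p| := by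
  rw [← Real.dist_eq]
  exact infDist_le_dist_of_mem hp

lemma left_mem {c : ℝ} (hc : c ∈ cantorSet) : c / 3 ∈ cantorSet := by
  rw [cantorSet_eq_union_halves]
  exact Or.inl ⟨c, hc, rfl⟩

lemma right_mem {c : ℝ} (hc : c ∈ cantorSet) : (2 + c) / 3 ∈ cantorSet := by
  rw [cantorSet_eq_union_halves]
  exact Or.inr ⟨c, hc, rfl⟩

lemma mem_cases {p : ℝ} (hp : p ∈ cantorSet) :
    (∃ c ∈ cantorSet, p = c / 3) ∨ ∃ c ∈ cantorSet, p = (2 + c) / 3 := by
  rw [cantorSet_eq_union_halves] at hp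
  rcases hp with ⟨c, hc, h⟩ | ⟨c, hc, h⟩
  · exact Or.inl ⟨c, hc, h.symm⟩
  · exact Or.inr ⟨c, hc, h.symm⟩

lemma abs_left (z c : ℝ) : |z - c / 3| = |3 * z - c| / 3 := by
  rw [show z - c / 3 = (3 * z - c) / 3 by ring, abs_div, abs_of_pos (by norm_num : (0 : ℝ) < 3)]

lemma abs_right (z c : ℝ) : |z - (2 + c) / 3| = |3 * z - 2 - c| / 3 := by
  rw [show z - (2 + c) / 3 = (3 * z - 2 - c) / 3 by ring, abs_div,
    abs_of_pos (by norm_num : (0 : ℝ) < 3)]

lemma D_le_left (z : ℝ) : D z ≤ D (3 * z) / 3 := by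
  obtain ⟨c, hc, h⟩ := exists_near (3 * z)
  rw [h, ← abs_left]
  exact D_le (left_mem hc)

lemma D_le_right (z : ℝ) : D z ≤ D (3 * z - 2) / 3 := by
  obtain ⟨c, hc, h⟩ := exists_near (3 * z - 2)
  rw [h, ← abs_right]
  exact D_le (right_mem hc)

lemma left_le {z c : ℝ} (hc : c ∈ cantorSet) : D (3 * z) / 3 ≤ |z - c / 3| := by
  rw [abs_left]
  have := D_le (z := 3 * z) hc
  linarith

lemma right_le {z c : ℝ} (hc : c ∈ cantorSet) : D (3 * z - 2) / 3 ≤ |z - (2 + c) / 3| := by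
  rw [abs_right]
  have := D_le (z := 3 * z - 2) hc
  linarith

lemma g_zero {a z : ℝ} (ha : 0 < a) (hz : D z = 0) : g a z = 0 := by
  rw [g, hz, Real.zero_rpow (neg_ne_zero.2 ha.ne'), ENNReal.ofReal_zero]

lemma g_le_of {a z w : ℝ} (ha : 0 < a) (h : D w / 3 ≤ D z) (h0 : D z ≤ D w / 3) :
    g a z ≤ ENNReal.ofReal (3 ^ a) * g a w := by
  rcases (D_nonneg z).eq_or_lt with hz | hz
  · rw [g_zero ha hz.symm]
    exact zero_le
  · have hw : 0 < D w := by linarith
    rw [g, g, ← ENNReal.ofReal_mul (by positivity)]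
    refine ENNReal.ofReal_le_ofReal ?_
    calc D z ^ (-a) ≤ (D w / 3) ^ (-a) :=
          Real.rpow_le_rpow_of_nonpos (by positivity) h (by linarith)
      _ = 3 ^ a * D w ^ (-a) := by
          rw [Real.div_rpow hw.le (by norm_num), Real.rpow_neg (by norm_num : (0 : ℝ) ≤ 3)]
          field_simp

lemma g_two {a : ℝ} (ha : 0 < a) (z : ℝ) :
    g a z ≤ ENNReal.ofReal (3 ^ a) * (g a (3 * z) + g a (3 * z - 2)) := by
  obtain ⟨p, hp, h⟩ := exists_near z
  rcases mem_cases hp with ⟨c, hc, rfl⟩ | ⟨c, hc, rfl⟩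
  · refine (g_le_of ha (h ▸ left_le hc) (D_le_left z)).trans ?_
    exact mul_le_mul_right (le_add_of_nonneg_right zero_le) _
  · refine (g_le_of ha (h ▸ right_le hc) (D_le_right z)).trans ?_
    exact mul_le_mul_right (le_add_of_nonneg_left zero_le) _

/-- truncation -/
lemma min_two {A x y u M : ℝ≥0∞} (hA : 1 ≤ A) (h : u ≤ A * (x + y)) :
    min u M ≤ A * (min x M + min y M) := by
  rcases le_total x M with hx | hx
  · rcases le_total y M with hy | hy
    · rw [min_eq_left hx, min_eq_left hy]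
      exact (min_le_left _ _).trans h
    · rw [min_eq_right hy]
      refine (min_le_right _ _).trans ?_
      calc M = 1 * M := (one_mul M).symm
        _ ≤ A * (min x M + M) := mul_le_mul' hA (le_add_of_nonneg_left zero_le)
  · rw [min_eq_right hx]
    refine (min_le_right _ _).trans ?_
    calc M = 1 * M := (one_mul M).symm
      _ ≤ A * (M + min y M) := mul_le_mul' hA (le_add_of_nonneg_right zero_le)

/-- affine change of variables -/
lemma scale (f : ℝ → ℝ≥0∞) (hf : Measurable f) {c : ℝ} (hc : 0 < c) (b u v : ℝ) :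
    ∫⁻ z in Icc u v, f (c * z + b) =
      ENNReal.ofReal c⁻¹ * ∫⁻ w in Icc (c * u + b) (c * v + b), f w := by
  have hmap : Measure.map (fun z : ℝ => c * z + b) volume = ENNReal.ofReal c⁻¹ • volume := by
    have h1 : (fun z : ℝ => c * z + b) = (fun w => w + b) ∘ (fun z => c * z) := rfl
    rw [h1, ← Measure.map_map (measurable_add_const b) (measurable_const_mul c),
      Real.map_volume_mul_left hc.ne', Measure.map_smul, map_add_right_eq_self,
      abs_of_pos (inv_pos.2 hc)]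
  have hpre : (fun z : ℝ => c * z + b) ⁻¹' Icc (c * u + b) (c * v + b) = Icc u v := by
    ext z
    simp only [mem_preimage, mem_Icc, add_le_add_iff_right]
    rw [mul_le_mul_iff_right₀ hc, mul_le_mul_iff_right₀ hc]
  have h2 := setLIntegral_map (μ := (volume : Measure ℝ)) (f := f)
    (g := fun z : ℝ => c * z + b) (s := Icc (c * u + b) (c * v + b)) measurableSet_Icc hf
    ((measurable_const_mul c).add_const b)
  rw [hpre, hmap, Measure.restrict_smul, lintegral_smul_measure] at h2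
  rw [← h2]
  rfl

lemma D_out {z : ℝ} (hz : z ∉ Icc (-1 : ℝ) 2) : 1 ≤ D z := by
  obtain ⟨p, hp, h⟩ := exists_near z
  have hp' := cantorSet_subset_unitInterval hp
  rw [h]
  rw [mem_Icc, not_and_or, not_le, not_le] at hz
  rcases hz with hz | hz
  · rw [abs_of_neg (by linarith [hp'.1])]
    linarith [hp'.1]
  · rw [abs_of_pos (by linarith [hp'.2])]
    linarith [hp'.2]

lemma g_out {a z : ℝ} (ha : 0 < a) (hz : z ∉ Icc (-1 : ℝ) 2) : g a z ≤ 1 := by
  rw [g, ← ENNReal.ofReal_one]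
  exact ENNReal.ofReal_le_ofReal (Real.rpow_le_one_of_one_le_of_nonpos (D_out hz) (by linarith))

lemma enlarge {a : ℝ} (ha : 0 < a) (n : ℝ≥0∞) (u v : ℝ) (huv : v - u ≤ 9) :
    ∫⁻ z in Icc u v, min (g a z) n ≤ (∫⁻ z in Icc (-1 : ℝ) 2, min (g a z) n) + 9 := by
  have h1 : Icc u v ⊆ Icc (-1 : ℝ) 2 ∪ (Icc u v \ Icc (-1 : ℝ) 2) := by
    intro z hz
    by_cases h : z ∈ Icc (-1 : ℝ) 2
    · exact Or.inl h
    · exact Or.inr ⟨hz, h⟩
  refine (lintegral_mono_set h1).trans ((lintegral_union_le _ _ _).trans ?_)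
  refine add_le_add le_rfl ?_
  calc ∫⁻ z in Icc u v \ Icc (-1 : ℝ) 2, min (g a z) n
      ≤ ∫⁻ z in Icc u v \ Icc (-1 : ℝ) 2, 1 := by
        refine setLIntegral_mono' (measurableSet_Icc.diff measurableSet_Icc) ?_
        intro z hz
        exact (min_le_left _ _).trans (g_out ha hz.2)
    _ = volume (Icc u v \ Icc (-1 : ℝ) 2) := by rw [setLIntegral_one]
    _ ≤ volume (Icc u v) := measure_mono sdiff_subset
    _ = ENNReal.ofReal (v - u) := Real.volume_Icc
    _ ≤ ENNReal.ofReal 9 := ENNReal.ofReal_le_ofReal huv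
    _ = 9 := by norm_num

lemma trunc_bound {a : ℝ} (ha0 : 0 < a) (ha : 2 * (3 : ℝ) ^ (a - 1) < 1) (n : ℕ) :
    ∫⁻ z in Icc (-1 : ℝ) 2, min (g a z) n ≤
      ENNReal.ofReal (9 * (2 * 3 ^ (a - 1)) / (1 - 2 * 3 ^ (a - 1))) := by
  set q : ℝ := 2 * (3 : ℝ) ^ (a - 1) with hq
  set I : ℝ≥0∞ := ∫⁻ z in Icc (-1 : ℝ) 2, min (g a z) n with hI
  have hfin : I ≠ ∞ := by
    refine ne_of_lt ?_
    calc I ≤ ∫⁻ z in Icc (-1 : ℝ) 2, (n : ℝ≥0∞) := lintegral_mono (fun z => min_le_right _ _)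
      _ = n * volume (Icc (-1 : ℝ) 2) := by rw [setLIntegral_const]
      _ < ∞ := by
        rw [Real.volume_Icc]
        exact ENNReal.mul_lt_top (ENNReal.natCast_lt_top n) ENNReal.ofReal_lt_top
  have hm : Measurable (fun z => min (g a z) (n : ℝ≥0∞)) := (measurable_g a).min measurable_const
  have h3a : (1 : ℝ≥0∞) ≤ ENNReal.ofReal (3 ^ a) := by
    rw [← ENNReal.ofReal_one]
    exact ENNReal.ofReal_le_ofReal (Real.one_le_rpow (by norm_num) ha0.le)
  have h1 : I ≤ ENNReal.ofReal (3 ^ a) * (ENNReal.ofReal (3 : ℝ)⁻¹ * (I + 9) +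
      ENNReal.ofReal (3 : ℝ)⁻¹ * (I + 9)) := by
    calc I ≤ ∫⁻ z in Icc (-1 : ℝ) 2, ENNReal.ofReal (3 ^ a) *
            (min (g a (3 * z + 0)) n + min (g a (3 * z + (-2))) n) := by
          refine lintegral_mono (fun z => ?_)
          refine min_two h3a ?_
          have := g_two ha0 z
          simpa only [add_zero, sub_eq_add_neg] using this
      _ = ENNReal.ofReal (3 ^ a) * ((∫⁻ z in Icc (-1 : ℝ) 2, min (g a (3 * z + 0)) n) +
            ∫⁻ z in Icc (-1 : ℝ) 2, min (g a (3 * z + (-2))) n) := by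
          rw [lintegral_const_mul' _ _ ENNReal.ofReal_ne_top, lintegral_add_left]
          exact hm.comp ((measurable_const_mul 3).add_const 0)
      _ ≤ _ := by
          rw [scale _ hm (by norm_num : (0 : ℝ) < 3) 0, scale _ hm (by norm_num : (0 : ℝ) < 3) (-2)]
          refine mul_le_mul_right (add_le_add ?_ ?_) _
          · exact mul_le_mul_right (enlarge ha0 n _ _ (by norm_num)) _
          · exact mul_le_mul_right (enlarge ha0 n _ _ (by norm_num)) _
  obtain ⟨r, hr⟩ : ∃ r : ℝ, 0 ≤ r ∧ I = ENNReal.ofReal r :=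
    ⟨I.toReal, ENNReal.toReal_nonneg, (ENNReal.ofReal_toReal hfin).symm⟩
  obtain ⟨hr0, hr⟩ := hr
  have h2 : ENNReal.ofReal r ≤ ENNReal.ofReal (3 ^ a * (3⁻¹ * (r + 9) + 3⁻¹ * (r + 9))) := by
    have h9 : (9 : ℝ≥0∞) = ENNReal.ofReal 9 := by norm_num
    rw [hr, h9, ← ENNReal.ofReal_add hr0 (by norm_num), ← ENNReal.ofReal_mul (by norm_num),
      ← ENNReal.ofReal_add (by positivity) (by positivity),
      ← ENNReal.ofReal_mul (by positivity)] at h1
    exact h1
  have h3 : r ≤ 3 ^ a * (3⁻¹ * (r + 9) + 3⁻¹ * (r + 9)) :=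
    (ENNReal.ofReal_le_ofReal_iff (by positivity)).1 h2
  have h4 : (3 : ℝ) ^ a = 3 * 3 ^ (a - 1) := by
    rw [Real.rpow_sub (by norm_num), Real.rpow_one]
    field_simp
  rw [hr]
  refine ENNReal.ofReal_le_ofReal ?_
  rw [le_div_iff₀ (by linarith)]
  rw [h4] at h3
  nlinarith

lemma full_bound {a : ℝ} (ha0 : 0 < a) (ha : 2 * (3 : ℝ) ^ (a - 1) < 1) :
    ∫⁻ z in Icc (-1 : ℝ) 2, g a z ≤
      ENNReal.ofReal (9 * (2 * 3 ^ (a - 1)) / (1 - 2 * 3 ^ (a - 1))) := by
  have h1 : ∀ z, g a z = ⨆ n : ℕ, min (g a z) (n : ℝ≥0∞) := by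
    intro z
    apply le_antisymm
    · obtain ⟨n, hn⟩ := ENNReal.exists_nat_gt (r := g a z) ENNReal.ofReal_ne_top
      refine le_iSup_of_le n ?_
      rw [min_eq_left hn.le]
    · exact iSup_le fun n => min_le_left _ _
  calc ∫⁻ z in Icc (-1 : ℝ) 2, g a z
      = ∫⁻ z in Icc (-1 : ℝ) 2, ⨆ n : ℕ, min (g a z) (n : ℝ≥0∞) :=
        lintegral_congr fun z => h1 z
    _ = ⨆ n : ℕ, ∫⁻ z in Icc (-1 : ℝ) 2, min (g a z) (n : ℝ≥0∞) := by
        refine lintegral_iSup (fun n => (measurable_g a).min measurable_const) ?_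
        intro m n hmn z
        exact min_le_min le_rfl (by exact_mod_cast hmn)
    _ ≤ _ := iSup_le fun n => trunc_bound ha0 ha n

/-- the Cantor set has measure zero -/
theorem volume_cantorSet : volume cantorSet = 0 := by
  have h1 : volume cantorSet ≤ ENNReal.ofReal (3 : ℝ)⁻¹ * volume cantorSet +
      ENNReal.ofReal (3 : ℝ)⁻¹ * volume cantorSet := by
    have hl : volume ((fun x : ℝ => x / 3) '' cantorSet) =
        ENNReal.ofReal (3 : ℝ)⁻¹ * volume cantorSet := by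
      have : (fun x : ℝ => x / 3) = fun x => (3 : ℝ)⁻¹ • x := by
        funext x
        rw [smul_eq_mul]
        ring
      rw [this, image_smul, Measure.addHaar_smul]
      simp
    have hr : volume ((fun x : ℝ => (2 + x) / 3) '' cantorSet) =
        ENNReal.ofReal (3 : ℝ)⁻¹ * volume cantorSet := by
      have h2 : (fun x : ℝ => (2 + x) / 3) '' cantorSet =
          (fun x : ℝ => (2 / 3 : ℝ) + x) '' ((fun x : ℝ => x / 3) '' cantorSet) := by
        rw [image_image]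
        refine image_congr fun x _ => ?_
        ring
      rw [h2, image_add_left, measure_preimage_add, hl]
    conv_lhs => rw [cantorSet_eq_union_halves]
    refine (measure_union_le _ _).trans ?_
    rw [hl, hr]
  have hfin : volume cantorSet ≠ ∞ := isCompact_C.measure_lt_top.ne
  obtain ⟨r, hr0, hr⟩ : ∃ r : ℝ, 0 ≤ r ∧ volume cantorSet = ENNReal.ofReal r :=
    ⟨(volume cantorSet).toReal, ENNReal.toReal_nonneg, (ENNReal.ofReal_toReal hfin).symm⟩
  rw [hr, ← ENNReal.ofReal_mul (by norm_num), ← ENNReal.ofReal_add (by positivity) (by positivity),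
    ENNReal.ofReal_le_ofReal_iff (by positivity)] at h1
  have : r = 0 := by linarith
  rw [hr, this, ENNReal.ofReal_zero]

/-- `∫ g` over the interval of radius `ρ` about `y` -/
def G (a y ρ : ℝ) : ℝ≥0∞ := ∫⁻ z in Icc (y - ρ) (y + ρ), g a z

/-- the estimate at the radius `ρ` -/
def P (a K ρ : ℝ) : Prop := ∀ y : ℝ, D y ≤ ρ → G a y ρ ≤ ENNReal.ofReal (K * ρ ^ (1 - a))

lemma down {a K ρ : ℝ} (ha : 0 < a) (hρ : 0 < ρ) (hρ' : ρ ≤ 1 / 12)
    (h : P a K (3 * ρ)) : P a K ρ := by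
  intro y hy
  obtain ⟨p, hp, hyp⟩ := exists_near y
  rw [hyp] at hy
  -- the common conclusion
  have key : ∀ b : ℝ, D (3 * y + b) ≤ 3 * ρ →
      (∀ z ∈ Icc (y - ρ) (y + ρ), g a z ≤ ENNReal.ofReal (3 ^ a) * g a (3 * z + b)) →
      G a y ρ ≤ ENNReal.ofReal (K * ρ ^ (1 - a)) := by
    intro b hb hz
    calc G a y ρ ≤ ∫⁻ z in Icc (y - ρ) (y + ρ), ENNReal.ofReal (3 ^ a) * g a (3 * z + b) :=
          setLIntegral_mono' measurableSet_Icc hz
      _ = ENNReal.ofReal (3 ^ a) * (ENNReal.ofReal (3 : ℝ)⁻¹ * G a (3 * y + b) (3 * ρ)) := by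
          rw [lintegral_const_mul' _ _ ENNReal.ofReal_ne_top,
            scale _ (measurable_g a) (by norm_num : (0 : ℝ) < 3) b, G,
            show 3 * (y - ρ) + b = 3 * y + b - 3 * ρ by ring,
            show 3 * (y + ρ) + b = 3 * y + b + 3 * ρ by ring]
      _ ≤ ENNReal.ofReal (3 ^ a) * (ENNReal.ofReal (3 : ℝ)⁻¹ *
            ENNReal.ofReal (K * (3 * ρ) ^ (1 - a))) :=
          mul_le_mul_right (mul_le_mul_right (h _ hb) _) _
      _ = ENNReal.ofReal (K * ρ ^ (1 - a)) := by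
          rw [← ENNReal.ofReal_mul (by norm_num), ← ENNReal.ofReal_mul (by positivity)]
          congr 1
          rw [Real.mul_rpow (by norm_num) hρ.le]
          have h3 : (3 : ℝ) ^ a * (3⁻¹ * 3 ^ (1 - a)) = 1 := by
            rw [Real.rpow_sub (by norm_num), Real.rpow_one]
            field_simp
          calc (3 : ℝ) ^ a * (3⁻¹ * (K * (3 ^ (1 - a) * ρ ^ (1 - a))))
              = ((3 : ℝ) ^ a * (3⁻¹ * 3 ^ (1 - a))) * (K * ρ ^ (1 - a)) := by ring
            _ = K * ρ ^ (1 - a) := by rw [h3, one_mul]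
  rcases mem_cases hp with ⟨c, hc, rfl⟩ | ⟨c, hc, rfl⟩
  · have hc' := cantorSet_subset_unitInterval hc
    refine key 0 ?_ ?_
    · have := left_le (z := y) hc
      rw [add_zero]
      linarith
    · intro z hz
      rw [add_zero]
      refine g_le_of ha ?_ (D_le_left z)
      obtain ⟨p', hp', h'⟩ := exists_near z
      rw [h']
      rcases mem_cases hp' with ⟨c', hc1, rfl⟩ | ⟨c', hc1, rfl⟩
      · exact left_le hc1
      · have hc2 := cantorSet_subset_unitInterval hc1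
        have h1 : D (3 * z) / 3 ≤ |z - c / 3| := left_le hc
        have h2 : |z - c / 3| ≤ 2 * ρ := by
          rw [abs_le] at hy ⊢
          constructor <;> linarith [hz.1, hz.2, hy.1, hy.2]
        have h3 : 2 * ρ ≤ |z - (2 + c') / 3| := by
          have h4 := neg_abs_le (z - (2 + c') / 3)
          have h5 := le_abs_self (z - c / 3)
          have := hc2.1
          have := hc'.2
          linarith
        linarith
  · have hc' := cantorSet_subset_unitInterval hc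
    refine key (-2) ?_ ?_
    · have := right_le (z := y) hc
      rw [← sub_eq_add_neg]
      linarith
    · intro z hz
      rw [← sub_eq_add_neg]
      refine g_le_of ha ?_ (D_le_right z)
      obtain ⟨p', hp', h'⟩ := exists_near z
      rw [h']
      rcases mem_cases hp' with ⟨c', hc1, rfl⟩ | ⟨c', hc1, rfl⟩
      · have hc2 := cantorSet_subset_unitInterval hc1
        have h1 : D (3 * z - 2) / 3 ≤ |z - (2 + c) / 3| := right_le hc
        have h2 : |z - (2 + c) / 3| ≤ 2 * ρ := by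
          rw [abs_le] at hy ⊢
          constructor <;> linarith [hz.1, hz.2, hy.1, hy.2]
        have h3 : 2 * ρ ≤ |z - c' / 3| := by
          have h4 := le_abs_self (z - c' / 3)
          have h5 := neg_abs_le (z - (2 + c) / 3)
          have := hc2.2
          have := hc'.1
          linarith
        linarith
      · exact right_le hc1

lemma up {a K ρ : ℝ} (ha : 0 < a) (hρ : 0 < ρ) (h : P a K (ρ / 3)) : P a K ρ := by
  intro y hy
  obtain ⟨p, hp, hyp⟩ := exists_near y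
  rw [hyp] at hy
  have hy3 : D (y / 3) ≤ ρ / 3 := by
    have h1 := D_le (z := y / 3) (left_mem hp)
    rw [show y / 3 - p / 3 = (y - p) / 3 by ring, abs_div,
      abs_of_pos (by norm_num : (0 : ℝ) < 3)] at h1
    linarith
  have hae : ∀ᵐ z : ℝ, g a z ≤ ENNReal.ofReal (3 ^ (-a)) * g a ((3 : ℝ)⁻¹ * z + 0) := by
    have h0 : ∀ᵐ z : ℝ, (3 : ℝ)⁻¹ * z ∉ cantorSet := by
      have h1 : volume ((fun z : ℝ => (3 : ℝ)⁻¹ * z) ⁻¹' cantorSet) = 0 := by
        rw [Real.volume_preimage_mul_left (by norm_num), volume_cantorSet, mul_zero]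
      exact (measure_eq_zero_iff_ae_notMem.1 h1)
    filter_upwards [h0] with z hz
    rw [add_zero]
    have hpos : 0 < D ((3 : ℝ)⁻¹ * z) :=
      (isClosed_cantorSet.notMem_iff_infDist_pos ⟨0, zero_mem_cantorSet⟩).1 hz
    have h2 : 3 * D ((3 : ℝ)⁻¹ * z) ≤ D z := by
      have := D_le_left ((3 : ℝ)⁻¹ * z)
      rw [show (3 : ℝ) * (3⁻¹ * z) = z by ring] at this
      linarith
    rw [g, g, ← ENNReal.ofReal_mul (by positivity)]
    refine ENNReal.ofReal_le_ofReal ?_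
    rw [← Real.mul_rpow (by norm_num) hpos.le]
    exact Real.rpow_le_rpow_of_nonpos (by positivity) h2 (by linarith)
  calc G a y ρ ≤ ∫⁻ z in Icc (y - ρ) (y + ρ),
          ENNReal.ofReal (3 ^ (-a)) * g a ((3 : ℝ)⁻¹ * z + 0) :=
        lintegral_mono_ae (ae_restrict_of_ae hae)
    _ = ENNReal.ofReal (3 ^ (-a)) * (ENNReal.ofReal ((3 : ℝ)⁻¹)⁻¹ * G a (y / 3) (ρ / 3)) := by
        rw [lintegral_const_mul' _ _ ENNReal.ofReal_ne_top,
          scale _ (measurable_g a) (by norm_num : (0 : ℝ) < (3 : ℝ)⁻¹) 0, G,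
          show (3 : ℝ)⁻¹ * (y - ρ) + 0 = y / 3 - ρ / 3 by ring,
          show (3 : ℝ)⁻¹ * (y + ρ) + 0 = y / 3 + ρ / 3 by ring]
    _ ≤ ENNReal.ofReal (3 ^ (-a)) * (ENNReal.ofReal ((3 : ℝ)⁻¹)⁻¹ *
          ENNReal.ofReal (K * (ρ / 3) ^ (1 - a))) :=
        mul_le_mul_right (mul_le_mul_right (h _ hy3) _) _
    _ = ENNReal.ofReal (K * ρ ^ (1 - a)) := by
        rw [← ENNReal.ofReal_mul (by norm_num), ← ENNReal.ofReal_mul (by positivity)]
        congr 1
        rw [Real.div_rpow hρ.le (by norm_num)]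
        have h3 : (3 : ℝ) ^ (-a) * 3 = 3 ^ (1 - a) := by
          rw [Real.rpow_sub (by norm_num), Real.rpow_one, Real.rpow_neg (by norm_num)]
          field_simp
        have h4 : (0 : ℝ) < 3 ^ (1 - a) := by positivity
        rw [inv_inv]
        calc (3 : ℝ) ^ (-a) * (3 * (K * (ρ ^ (1 - a) / 3 ^ (1 - a))))
            = ((3 : ℝ) ^ (-a) * 3) * (K * ρ ^ (1 - a)) / 3 ^ (1 - a) := by ring
          _ = K * ρ ^ (1 - a) := by rw [h3, mul_div_assoc, mul_div_cancel₀ _ h4.ne']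

/-- the constant -/
def KC (a : ℝ) : ℝ := 9 * (2 * 3 ^ (a - 1)) / (1 - 2 * 3 ^ (a - 1)) * 12 ^ (1 - a)

lemma KC_nonneg {a : ℝ} (ha : 2 * (3 : ℝ) ^ (a - 1) < 1) : 0 ≤ KC a := by
  have h1 : 0 < 1 - 2 * (3 : ℝ) ^ (a - 1) := by linarith
  unfold KC
  positivity

lemma lt_one {a : ℝ} (ha : 2 * (3 : ℝ) ^ (a - 1) < 1) : a < 1 := by
  by_contra h
  push Not at h
  have := Real.one_le_rpow (by norm_num : (1 : ℝ) ≤ 3) (by linarith : 0 ≤ a - 1)
  linarith

lemma base {a ρ : ℝ} (ha0 : 0 < a) (ha : 2 * (3 : ℝ) ^ (a - 1) < 1) (h1 : 1 / 12 ≤ ρ)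
    (h2 : ρ ≤ 1 / 2) : P a (KC a) ρ := by
  intro y hy
  obtain ⟨p, hp, hyp⟩ := exists_near y
  have hp' := cantorSet_subset_unitInterval hp
  rw [hyp, abs_le] at hy
  have h0 : 0 < 1 - 2 * (3 : ℝ) ^ (a - 1) := by linarith
  calc G a y ρ ≤ ∫⁻ z in Icc (-1 : ℝ) 2, g a z := by
        refine lintegral_mono_set (Icc_subset_Icc ?_ ?_)
        · linarith [hy.1, hp'.1]
        · linarith [hy.2, hp'.2]
    _ ≤ ENNReal.ofReal (9 * (2 * 3 ^ (a - 1)) / (1 - 2 * 3 ^ (a - 1))) := full_bound ha0 ha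
    _ ≤ ENNReal.ofReal (KC a * ρ ^ (1 - a)) := by
        refine ENNReal.ofReal_le_ofReal ?_
        have h3 : 1 ≤ (12 : ℝ) ^ (1 - a) * ρ ^ (1 - a) := by
          rw [← Real.mul_rpow (by norm_num) (by linarith)]
          exact Real.one_le_rpow (by linarith) (by linarith [lt_one ha])
        unfold KC
        rw [mul_assoc]
        refine le_mul_of_one_le_right ?_ h3
        positivity

lemma all {a : ℝ} (ha0 : 0 < a) (ha : 2 * (3 : ℝ) ^ (a - 1) < 1) (n : ℕ) :
    ∀ ρ : ℝ, 1 / 12 * (1 / 3) ^ n ≤ ρ → ρ ≤ 1 / 2 * 3 ^ n → P a (KC a) ρ := by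
  induction n with
  | zero =>
    intro ρ h1 h2
    exact base ha0 ha (by simpa using h1) (by simpa using h2)
  | succ n ih =>
    intro ρ h1 h2
    have e1 : (1 / 3 : ℝ) ^ (n + 1) = (1 / 3) ^ n * (1 / 3) := pow_succ _ _
    have e2 : (3 : ℝ) ^ (n + 1) = 3 ^ n * 3 := pow_succ _ _
    have e3 : (0 : ℝ) < (1 / 3) ^ n := by positivity
    have e4 : (1 / 3 : ℝ) ^ n ≤ 1 := pow_le_one₀ (by norm_num) (by norm_num)
    have e5 : (1 : ℝ) ≤ 3 ^ n := one_le_pow₀ (by norm_num)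
    have hρ : 0 < ρ := lt_of_lt_of_le (by positivity) h1
    rw [e1] at h1
    rw [e2] at h2
    rcases lt_or_ge ρ (1 / 12) with h3 | h3
    · exact down ha0 hρ h3.le (ih _ (by linarith) (by linarith))
    · rcases le_or_gt ρ (1 / 2) with h4 | h4
      · exact base ha0 ha h3 h4
      · exact up ha0 hρ (ih _ (by linarith) (by linarith))

/-- **Aikawa condition of the Cantor set**: for `0 < a < 1 - log 2 / log 3` (that is
`2 * 3 ^ (a - 1) < 1`). -/
theorem lac_cantor (a : ℝ) (ha0 : 0 < a) (ha : 2 * (3 : ℝ) ^ (a - 1) < 1) :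
    ∃ K : ℝ, 0 ≤ K ∧ ∀ y ρ : ℝ, 0 < ρ → Metric.infDist y cantorSet ≤ ρ →
      ∫⁻ z in Set.Icc (y - ρ) (y + ρ), ENNReal.ofReal (Metric.infDist z cantorSet ^ (-a)) ≤
        ENNReal.ofReal (K * ρ ^ (1 - a)) := by
  refine ⟨KC a, KC_nonneg ha, fun y ρ hρ hy => ?_⟩
  obtain ⟨n₁, hn₁⟩ := exists_pow_lt_of_lt_one (by positivity : (0 : ℝ) < 12 * ρ)
    (by norm_num : (1 / 3 : ℝ) < 1)
  obtain ⟨n₂, hn₂⟩ := pow_unbounded_of_one_lt (2 * ρ) (by norm_num : (1 : ℝ) < 3)
  refine all ha0 ha (max n₁ n₂) ρ ?_ ?_ y hy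
  · have h1 : (1 / 3 : ℝ) ^ (max n₁ n₂) ≤ (1 / 3) ^ n₁ :=
      pow_le_pow_of_le_one (by norm_num) (by norm_num) (le_max_left _ _)
    linarith
  · have h1 : (3 : ℝ) ^ n₂ ≤ 3 ^ (max n₁ n₂) := pow_le_pow_right₀ (by norm_num) (le_max_right _ _)
    linarith

/-- the condition on the exponent -/
theorem cond_iff (a : ℝ) : 2 * (3 : ℝ) ^ (a - 1) < 1 ↔ a < 1 - Real.log 2 / Real.log 3 := by
  have h3 : 0 < Real.log 3 := Real.log_pos (by norm_num)
  have hp : (0 : ℝ) < 3 ^ (a - 1) := by positivity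
  rw [← Real.log_neg_iff (by positivity), Real.log_mul (by norm_num) hp.ne',
    Real.log_rpow (by norm_num)]
  have h4 : Real.log 2 + (a - 1) * Real.log 3 =
      (a - (1 - Real.log 2 / Real.log 3)) * Real.log 3 := by
    field_simp
    ring
  rw [h4, mul_neg_iff]
  constructor
  · rintro (⟨-, h⟩ | ⟨h, -⟩) <;> linarith
  · intro h
    exact Or.inr ⟨by linarith, h3⟩

/-- the Cantor set with the usual form of the exponent condition -/
theorem lac_cantor' (a : ℝ) (ha0 : 0 < a) (ha : a < 1 - Real.log 2 / Real.log 3) :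
    ∃ K : ℝ, 0 ≤ K ∧ ∀ y ρ : ℝ, 0 < ρ → Metric.infDist y cantorSet ≤ ρ →
      ∫⁻ z in Set.Icc (y - ρ) (y + ρ), ENNReal.ofReal (Metric.infDist z cantorSet ^ (-a)) ≤
        ENNReal.ofReal (K * ρ ^ (1 - a)) :=
  lac_cantor a ha0 ((cond_iff a).2 ha)

end

end Vale.Agent.P141.R2.H497
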